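import Vale.Agent.P178.H815.RingFacts

/-! The residue characteristic of helper815's ring. -/

namespace Vale.Agent.P178.H51

open Vale.Agent.P178.H815

theorem charP_residueField (p : ℕ) [Fact p.Prime] (hp : p ≠ 2) :
    CharP (IsLocalRing.ResidueField (AA p)) p := by
  refine (CharP.charP_iff_prime_eq_zero (Fact.out : p.Prime)).2 ?_
  have h : IsLocalRing.residue (AA p) (p : AA p) = 0 :=
    (IsLocalRing.residue_eq_zero_iff _).2 (Ideal.pow_le_self two_ne_zero (p_mem_sq p hp))
  rwa [map_natCast] at h

end Vale.Agent.P178.H51
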