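import Vale.Agent.P178.H51.Main
import Vale.Agent.P178.H51.Char
import Vale.Agent.P178.H847.EvalC

/-!
The final theorem: `K₃(A) → K₃(Frac A)` is not injective for helper815's ring `A`.
-/

namespace Vale.Agent.P178.H51

open CategoryTheory Simplicial Opposite
open Vale.Agent.P178.H911 (I phiA DA dlg)
open Vale.Agent.P178.H815 (AA)

/-- the three derivations `A → 𝔽_p` -/
noncomputable def DD (p : ℕ) [Fact p.Prime] (hp : p ≠ 2) (l : Fin 3) :
    letI : Algebra (AA p) (ZMod p) := (phiA p hp).toAlgebra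
    Derivation ℤ (AA p) (ZMod p) :=
  letI : Algebra (AA p) (ZMod p) := (phiA p hp).toAlgebra
  Derivation.mk' (DA p hp l).toIntLinearMap fun a b => H911.DA_mul p hp l a b

theorem K_three_not_injective (p : ℕ) [Fact p.Prime] (hp : p ≠ 2) :
    ¬ Function.Injective (QK.K.map 3 (algebraMap (AA p) (FractionRing (AA p)))) := by
  let _ : Algebra (AA p) (ZMod p) := (phiA p hp).toAlgebra
  let e : I ≃ Fin (Fintype.card I) := Fintype.equivFin I
  obtain ⟨d, hd⟩ := H847.exists_qdata (R := AA p) (k := ZMod p) e (DD p hp)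
  refine not_injective_of_cocycle p hp e (H873.qcoc d) (H873.qcoc_cocycle d)
    (fun g h k => H847.qcoc_south g h k) 1 one_ne_zero
    (fun g h k χ₁ χ₂ χ₃ h1 h2 h3 => ?_)
  rw [one_mul]
  exact H847.qcoc_north hd h1 h2 h3

end Vale.Agent.P178.H51
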