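import Vale.Agent.P178.H873.GL
import Vale.Agent.P178.H847.QDef
import Vale.Agent.P178.H676.Susp

/-!
The functor from the suspension category of the Steinberg group `St ι R` (`ι` finite) to Quillen's
category `Q P(R)`.
-/

namespace Vale.Agent.P178.H51

open CategoryTheory
open Vale.Agent.P178.H847 (QHom QP)
open Vale.Agent.P178.H873 (St)
open Vale.Agent.P178.H676 (Susp)

universe u

section mat

variable {ι : Type*} [Fintype ι] [DecidableEq ι] {m : ℕ} {R : Type u} [CommRing R]

/-- the automorphism of `R ^ m` given by an invertible matrix with rows and columns in `ι ≃ Fin m` -/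
def glAut (e : ι ≃ Fin m) (U : (Matrix ι ι R)ˣ) : (Fin m → R) ≃ₗ[R] (Fin m → R) where
  toFun x := fun i => ∑ j, (U : Matrix ι ι R) (e.symm i) j * x (e j)
  map_add' x y := by
    funext i
    simp only [Pi.add_apply, mul_add, Finset.sum_add_distrib]
  map_smul' r x := by
    funext i
    simp only [Pi.smul_apply, smul_eq_mul, RingHom.id_apply, Finset.mul_sum]
    exact Finset.sum_congr rfl fun j _ => by ring
  invFun x := fun i => ∑ j, ((U⁻¹ : (Matrix ι ι R)ˣ) : Matrix ι ι R) (e.symm i) j * x (e j)
  left_inv x := by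
    funext i
    have h : ∀ a b : ι, ∑ j, ((U⁻¹ : (Matrix ι ι R)ˣ) : Matrix ι ι R) a j * (U : Matrix ι ι R) j b =
        (1 : Matrix ι ι R) a b := fun a b => by
      rw [← U.inv_mul, Matrix.mul_apply]
    calc ∑ j, ((U⁻¹ : (Matrix ι ι R)ˣ) : Matrix ι ι R) (e.symm i) j *
          ∑ k, (U : Matrix ι ι R) (e.symm (e j)) k * x (e k)
        = ∑ k, (∑ j, ((U⁻¹ : (Matrix ι ι R)ˣ) : Matrix ι ι R) (e.symm i) j *
          (U : Matrix ι ι R) j k) * x (e k) := by
          simp only [Equiv.symm_apply_apply, Finset.mul_sum, Finset.sum_mul]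
          rw [Finset.sum_comm]
          exact Finset.sum_congr rfl fun k _ => Finset.sum_congr rfl fun j _ => by ring
      _ = x i := by
          simp only [h, Matrix.one_apply, ite_mul, one_mul, zero_mul]
          rw [Finset.sum_ite_eq Finset.univ (e.symm i) fun k => x (e k)]
          simp
  right_inv x := by
    funext i
    have h : ∀ a b : ι, ∑ j, (U : Matrix ι ι R) a j * ((U⁻¹ : (Matrix ι ι R)ˣ) : Matrix ι ι R) j b =
        (1 : Matrix ι ι R) a b := fun a b => by
      rw [← U.mul_inv, Matrix.mul_apply]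
    calc ∑ j, (U : Matrix ι ι R) (e.symm i) j *
          ∑ k, ((U⁻¹ : (Matrix ι ι R)ˣ) : Matrix ι ι R) (e.symm (e j)) k * x (e k)
        = ∑ k, (∑ j, (U : Matrix ι ι R) (e.symm i) j *
          ((U⁻¹ : (Matrix ι ι R)ˣ) : Matrix ι ι R) j k) * x (e k) := by
          simp only [Equiv.symm_apply_apply, Finset.mul_sum, Finset.sum_mul]
          rw [Finset.sum_comm]
          exact Finset.sum_congr rfl fun k _ => Finset.sum_congr rfl fun j _ => by ring
      _ = x i := by
          simp only [h, Matrix.one_apply, ite_mul, one_mul, zero_mul]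
          rw [Finset.sum_ite_eq Finset.univ (e.symm i) fun k => x (e k)]
          simp

theorem glAut_apply (e : ι ≃ Fin m) (U : (Matrix ι ι R)ˣ) (x : Fin m → R) (i : Fin m) :
    glAut e U x i = ∑ j, (U : Matrix ι ι R) (e.symm i) j * x (e j) := rfl

theorem glAut_one (e : ι ≃ Fin m) : glAut e (1 : (Matrix ι ι R)ˣ) = LinearEquiv.refl R _ := by
  ext x i
  rw [glAut_apply]
  simp only [Units.val_one, Matrix.one_apply, ite_mul, one_mul, zero_mul]
  rw [Finset.sum_ite_eq Finset.univ (e.symm i) fun k => x (e k)]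
  simp

theorem glAut_mul (e : ι ≃ Fin m) (U V : (Matrix ι ι R)ˣ) :
    glAut e (U * V) = (glAut e V).trans (glAut e U) := by
  ext x i
  rw [LinearEquiv.trans_apply, glAut_apply, glAut_apply]
  simp only [glAut_apply, Units.val_mul, Matrix.mul_apply, Equiv.symm_apply_apply, Finset.mul_sum,
    Finset.sum_mul]
  rw [Finset.sum_comm]
  exact Finset.sum_congr rfl fun k _ => Finset.sum_congr rfl fun j _ => by ring

/-- the automorphism of the module of the object `QP.free R m` -/
def topAut (f : (Fin m → R) ≃ₗ[R] (Fin m → R)) : (QP.free R m).M ≃ₗ[R] (QP.free R m).M :=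
  (Submodule.topEquiv.trans f).trans Submodule.topEquiv.symm

theorem topAut_coe (f : (Fin m → R) ≃ₗ[R] (Fin m → R)) (x : (QP.free R m).M) :
    (topAut f x).1 = f x.1 := rfl

theorem topAut_refl : topAut (LinearEquiv.refl R (Fin m → R)) = LinearEquiv.refl R _ := rfl

theorem topAut_trans (f g : (Fin m → R) ≃ₗ[R] (Fin m → R)) :
    topAut (f.trans g) = (topAut f).trans (topAut g) := rfl

end mat

section functor

variable {ι : Type*} [Fintype ι] [DecidableEq ι] {m : ℕ} (R : Type u) [CommRing R]

instance : Module.Projective R (QP.free R m).M := inferInstance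

/-- the data of the functor `Susp (St ι R) ⥤ QP R` -/
noncomputable def spData (e : ι ≃ Fin m) : Susp.Data (St ι R) (QP R) where
  S := QP.zero R
  N := QP.zero R
  P := QP.free R m
  s := QHom.ofBot R (QP.zero R).M (QP.free R m).M
  n := QHom.ofTop R (QP.zero R).M (QP.free R m).M
  ρ g := QHom.ofIso (topAut (glAut e (St.toGL g)))
  ρ_one := by
    rw [map_one, glAut_one, topAut_refl]
    exact QHom.ofIso_refl
  ρ_mul g h := by
    rw [map_mul, glAut_mul, topAut_trans]
    exact (QHom.ofIso_comp _ _).symm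
  s_ρ g := QHom.ofBot_comp _
  n_ρ g := QHom.ofTop_comp _

/-- the functor `Susp (St ι R) ⥤ QP R` -/
noncomputable def spFun (e : ι ≃ Fin m) : Susp (St ι R) ⥤ QP R := (spData R e).functor

end functor

end Vale.Agent.P178.H51
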