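import Vale.Agent.P178.H51.Nat
import Vale.Agent.P178.H956.Assembly
import Vale.Agent.P178.H948.SC
import Vale.Agent.P178.H676.Nat
import Vale.Agent.P178.H911.EvalAA
import Vale.Agent.P178.H911.Van
import Vale.Agent.P178.QK.Transfer

/-!
The concrete assembly: `K₃(A) → K₃(Frac A)` is not injective, given a suitable 4-cocycle on the
nerve of Quillen's category `Q P(A)`.
-/

namespace Vale.Agent.P178.H51

open CategoryTheory Simplicial Opposite
open Vale.Agent.P178.H847 (QHom QP)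
open Vale.Agent.P178.H873 (St)
open Vale.Agent.P178.H676 (Susp Sig)
open Vale.Agent.P178.H911 (I symb Dg dlg phiA DA ev3)
open Vale.Agent.P178.H815 (AA u1 u2 u3)
open Vale.Agent.P178.H924 (Re SCh sbd spush sev)

/-- the simplicial homology of the suspension of the Steinberg group vanishes in degrees 2, 3 -/
theorem susp_acyclic (R : Type) [CommRing R] : ∀ k < 2,
    ∀ x : SCh (nerve (Susp (St I R))) (k + 2), sbd _ (k + 1) x = 0 → ∃ y, sbd _ (k + 2) y = x := by
  intro k hk x hx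
  interval_cases k
  · exact H676.exists_bd2 (H873.bar2_surjective (St.commutator_eq_top (fun i j => by
      obtain ⟨q, h1, h2, -, -⟩ := H911.four_I i j i i
      exact ⟨q, h1, h2⟩))) x hx
  · exact H676.exists_bd3 (fun b hb => St.exists_bar3 H911.four_I b hb) x hx

variable (p : ℕ) [Fact p.Prime]

/-- the value of the cocycle on the suspended symbol chain -/
theorem sev_symb (hp : p ≠ 2) {m : ℕ} (e : I ≃ Fin m)
    (c : (nerve (QP (AA p))) _⦋4⦌ → ZMod p)
    (hS : ∀ g h k : St I (AA p), c (ComposableArrows.mk₄ (spData (AA p) e).s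
      ((spData (AA p) e).ρ g) ((spData (AA p) e).ρ h) ((spData (AA p) e).ρ k)) = 0)
    (ε : ZMod p)
    (hN : ∀ (g h k : St I (AA p)) (χ₁ χ₂ χ₃ : I → (AA p)ˣ), Dg g χ₁ → Dg h χ₂ → Dg k χ₃ →
      c (ComposableArrows.mk₄ (spData (AA p) e).n
      ((spData (AA p) e).ρ g) ((spData (AA p) e).ρ h) ((spData (AA p) e).ρ k)) =
        ε * ∑ v : I, dlg (phiA p hp) (DA p hp) 0 (χ₁ v) * dlg (phiA p hp) (DA p hp) 1 (χ₂ v) *
          dlg (phiA p hp) (DA p hp) 2 (χ₃ v)) :
    sev c (spush (nerveMap (spFun (AA p) e)) 4 (Sig _ (symb (u1 p) (u2 p) (u3 p)))) = ε := by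
  have key : ∀ t : St I (AA p) × St I (AA p) × St I (AA p) →₀ ℤ,
      sev c (spush (nerveMap (spFun (AA p) e)) 4 (Sig _ t)) =
        ev3 (fun g => -c (ComposableArrows.mk₄ (spData (AA p) e).n
          ((spData (AA p) e).ρ g.1) ((spData (AA p) e).ρ g.2.1) ((spData (AA p) e).ρ g.2.2))) t := by
    intro t
    induction t using Finsupp.induction_linear with
    | zero => simp
    | add a b ha hb => simp only [map_add, ha, hb]
    | single g n =>
      obtain ⟨g, h, k⟩ := g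
      rw [H911.ev3_single, smul_neg]
      refine (congrArg (sev c) (H676.spush_functor (spData (AA p) e) g h k n)).trans
        ((map_sub (sev c) _ _).trans ((congrArg₂ (· - ·) (H924.sev_single c _ n)
          (H924.sev_single c _ n)).trans ?_))
      change n • c _ - n • c _ = _
      rw [hS, smul_zero, zero_sub]
  rw [key, H911.ev3_symb _ (-ε) (dlg (phiA p hp) (DA p hp))
    (fun l a b => H911.dlg_mul (phiA p hp) (DA p hp) (H911.DA_mul p hp) l a b)
    (fun g h k χ₁ χ₂ χ₃ h1 h2 h3 => by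
      rw [hN g h k χ₁ χ₂ χ₃ h1 h2 h3, neg_mul]), H911.det_dlg, mul_neg_one, neg_neg]

/-- a cochain on the nerve of `QK.QP R` from a cochain on the nerve of `H847.QP R` -/
noncomputable def tw {R : Type} [CommRing R] {M : Type*} {n : ℕ}
    (c : (nerve (QP R)) _⦋n⦌ → M) : (nerve (QK.QP R)) _⦋n⦌ → M :=
  fun y => c ((nerveMap (QK.ofGraph R)).app (op ⦋n⦌) y)

theorem tw_cocycle {R : Type} [CommRing R] {M : Type*} [AddCommGroup M] {n : ℕ}
    (c : (nerve (QP R)) _⦋n⦌ → M)
    (hc : ∀ y : (nerve (QP R)) _⦋n + 1⦌,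
      ∑ i : Fin (n + 2), (-1 : ℤ) ^ (i : ℕ) • c ((nerve (QP R)).δ i y) = 0)
    (y : (nerve (QK.QP R)) _⦋n + 1⦌) :
    ∑ i : Fin (n + 2), (-1 : ℤ) ^ (i : ℕ) • tw c ((nerve (QK.QP R)).δ i y) = 0 :=
  hc ((nerveMap (QK.ofGraph R)).app (op ⦋n + 1⦌) y)

theorem comp_toGraph_ofGraph {R : Type} [CommRing R] {J : Type} [Category.{0} J] {C : Type}
    [Category.{0} C] (x : J ⥤ C) (G : C ⥤ QP R) :
    (x ⋙ (G ⋙ QK.toGraph R)) ⋙ QK.ofGraph R = x ⋙ G := by
  rw [Functor.assoc, Functor.assoc, QK.toGraph_ofGraph, Functor.comp_id]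

theorem sev_tw {R : Type} [CommRing R] {M : Type*} [AddCommGroup M] {n : ℕ}
    (c : (nerve (QP R)) _⦋n⦌ → M) {C : Type} [Category.{0} C] (G : C ⥤ QP R)
    (z : SCh (nerve C) n) :
    sev (tw c) (spush (nerveMap (G ⋙ QK.toGraph R)) n z) = sev c (spush (nerveMap G) n z) := by
  induction z using Finsupp.induction_linear with
  | zero => simp
  | add a b ha hb => simp only [map_add, ha, hb]
  | single x a =>
    rw [H924.spush_single, H924.spush_single, H924.sev_single, H924.sev_single]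
    have h : (nerveMap (QK.ofGraph R)).app (op ⦋n⦌)
        ((nerveMap (G ⋙ QK.toGraph R)).app (op ⦋n⦌) x) = (nerveMap G).app (op ⦋n⦌) x :=
      comp_toGraph_ofGraph (J := Fin (n + 1)) x G
    exact congrArg (fun u => a • c u) h

/-- the concrete assembly -/
theorem not_injective_of_cocycle (hp : p ≠ 2) {m : ℕ} (e : I ≃ Fin m)
    (c : (nerve (QP (AA p))) _⦋4⦌ → ZMod p)
    (hc : ∀ y : (nerve (QP (AA p))) _⦋5⦌,
      ∑ i : Fin 6, (-1 : ℤ) ^ (i : ℕ) • c ((nerve (QP (AA p))).δ i y) = 0)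
    (hS : ∀ g h k : St I (AA p), c (ComposableArrows.mk₄ (spData (AA p) e).s
      ((spData (AA p) e).ρ g) ((spData (AA p) e).ρ h) ((spData (AA p) e).ρ k)) = 0)
    (ε : ZMod p) (hε : ε ≠ 0)
    (hN : ∀ (g h k : St I (AA p)) (χ₁ χ₂ χ₃ : I → (AA p)ˣ), Dg g χ₁ → Dg h χ₂ → Dg k χ₃ →
      c (ComposableArrows.mk₄ (spData (AA p) e).n
      ((spData (AA p) e).ρ g) ((spData (AA p) e).ρ h) ((spData (AA p) e).ρ k)) =
        ε * ∑ v : I, dlg (phiA p hp) (DA p hp) 0 (χ₁ v) * dlg (phiA p hp) (DA p hp) 1 (χ₂ v) *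
          dlg (phiA p hp) (DA p hp) 2 (χ₃ v)) :
    ¬ Function.Injective (QK.K.map 3 (algebraMap (AA p) (FractionRing (AA p)))) := by
  have hsq := spFun_natural (algebraMap (AA p) (FractionRing (AA p))) e
  refine H956.not_injective_of_simplicial (S := nerve (Susp (St I (AA p))))
    (S' := nerve (Susp (St I (FractionRing (AA p))))) (Q := nerve (QK.QP (AA p)))
    (Q' := nerve (QK.QP (FractionRing (AA p))))
    (nerveMap (spFun (AA p) e ⋙ QK.toGraph (AA p))) (nerveMap (Susp.map (St.map (algebraMap (AA p)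
      (FractionRing (AA p)))))) (nerveMap (spFun (FractionRing (AA p)) e ⋙ QK.toGraph _))
    (nerveMap (QK.baseChange (algebraMap (AA p) (FractionRing (AA p)))))
    ?_ (susp_acyclic _) (susp_acyclic _) (ComposableArrows.mk₀ Susp.south)
    (q := QK.BQ.base (AA p)) (q' := QK.BQ.base (FractionRing (AA p))) ?_
    (QK.BQ.map_base (algebraMap (AA p) (FractionRing (AA p))))
    (Sig _ (symb (u1 p) (u2 p) (u3 p))) (H676.sbd_Sig _ (H911.bar3_symb _ _ _)) ?_
    (tw c) (tw_cocycle c hc) ?_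
  · change nerveMap ((spFun (AA p) e ⋙ QK.toGraph (AA p)) ⋙ QK.baseChange _) =
      nerveMap (Susp.map (St.map _) ⋙ spFun (FractionRing (AA p)) e ⋙ QK.toGraph _)
    rw [Functor.assoc, QK.toGraph_baseChange, ← Functor.assoc, hsq, Functor.assoc]
  · refine congrArg (H847.vtx (nerve (QK.QP (AA p)))) ?_
    rw [nerveMap_app_mk₀]
    rfl
  · obtain ⟨w, hw⟩ := H911.exists_bar4_frac p hp
    obtain ⟨b, hb⟩ := H676.Sig_bar4 w
    refine ⟨b, ?_⟩
    rw [hb, hw, H676.spush_Sig]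
    rfl
  · rw [sev_tw, sev_symb p hp e c hS ε hN]
    exact hε

end Vale.Agent.P178.H51
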