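import Vale.Agent.P178.H51.Fun
import Vale.Agent.P178.H847.QK

/-!
The functor `Susp (St ι R) ⥤ QP R` is compatible with base change.
-/

namespace Vale.Agent.P178.H51

open CategoryTheory
open Vale.Agent.P178.H847 (QHom QP fv bc bcMap domAmb mem_domAmb amb amb_apply bcMap_eq_on bcMap_fv
  bc_top)
open Vale.Agent.P178.H873 (St)
open Vale.Agent.P178.H676 (Susp)

universe u

variable {ι : Type*} [Fintype ι] [DecidableEq ι] {m : ℕ} {R S : Type u} [CommRing R] [CommRing S]

/-- the graph of a morphism of `QP S` -/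
def gr {P P' : QP S} (φ : P ⟶ P') : Set ((Fin P'.n → S) × (Fin P.n → S)) :=
  {z | ∃ (h : z.1 ∈ P'.M) (h' : (⟨z.1, h⟩ : P'.M) ∈ QHom.dom φ), (QHom.fn φ ⟨⟨z.1, h⟩, h'⟩).1 = z.2}

theorem heq_of_gr {P P' Q Q' : QP S} (hP : P = Q) (hP' : P' = Q') {φ : P ⟶ P'} {ψ : Q ⟶ Q'}
    (h : gr φ ≍ gr ψ) : φ ≍ ψ := by
  subst hP
  subst hP'
  have h := eq_of_heq h
  apply heq_of_eq
  refine QHom.ext' (fun x => ⟨fun hx => ?_, fun hx => ?_⟩) fun x hx hx' => Subtype.ext ?_
  · have : ((x.1, (QHom.fn φ ⟨x, hx⟩).1) : (Fin P'.n → S) × (Fin P.n → S)) ∈ gr φ :=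
      ⟨x.2, hx, rfl⟩
    rw [h] at this
    obtain ⟨_, h', -⟩ := this
    exact h'
  · have : ((x.1, (QHom.fn ψ ⟨x, hx⟩).1) : (Fin P'.n → S) × (Fin P.n → S)) ∈ gr ψ :=
      ⟨x.2, hx, rfl⟩
    rw [← h] at this
    obtain ⟨_, h', -⟩ := this
    exact h'
  · have : ((x.1, (QHom.fn φ ⟨x, hx⟩).1) : (Fin P'.n → S) × (Fin P.n → S)) ∈ gr φ :=
      ⟨x.2, hx, rfl⟩
    rw [h] at this
    obtain ⟨_, h', h''⟩ := this
    exact h''.symm

variable (f : R →+* S)

theorem glAut_fv (e : ι ≃ Fin m) (g : St ι R) (v : Fin m → R) :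
    glAut e (St.toGL (St.map f g)) (fv f v) = fv f (glAut e (St.toGL g) v) := by
  funext i
  rw [glAut_apply, St.toGL_map]
  change _ = f (glAut e (St.toGL g) v i)
  rw [glAut_apply, map_sum]
  refine Finset.sum_congr rfl fun j _ => ?_
  rw [map_mul]
  rfl

theorem bc_bot (n : ℕ) : bc f (⊥ : Submodule R (Fin n → R)) = ⊥ := by
  rw [eq_bot_iff, bc, Submodule.span_le]
  rintro _ ⟨v, hv, rfl⟩
  have : v = 0 := hv
  subst this
  change fv f 0 = 0
  funext i
  exact map_zero f

/-- the functor `Susp (St ι R) ⥤ QP R` is natural in `R` -/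
theorem spFun_natural (e : ι ≃ Fin m) :
    spFun R e ⋙ QP.baseChange f = Susp.map (St.map f) ⋙ spFun S e := by
  have hfree : (spFun R e ⋙ QP.baseChange f).obj Susp.mid =
      (Susp.map (St.map f) ⋙ spFun S e).obj Susp.mid := QP.bcObj_free f m
  have hzero : QP.bcObj f (QP.zero R) = QP.zero S := QP.bcObj_zero f
  refine Susp.functor_ext' hzero hzero hfree ?_ ?_ fun g => ?_
  · refine heq_of_gr hzero hfree (heq_of_eq (Set.ext fun z => ⟨?_, ?_⟩))
    · rintro ⟨h, h', h''⟩
      have h1 : z.1 ∈ bc f (domAmb (P := QP.zero R) (P' := QP.free R m)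
        (QHom.ofBot R (QP.zero R).M (QP.free R m).M)) := h'
      have h2 : domAmb (P := QP.zero R) (P' := QP.free R m)
          (QHom.ofBot R (QP.zero R).M (QP.free R m).M) = ⊥ := by
        rw [eq_bot_iff]
        intro x hx
        obtain ⟨hx1, hx2⟩ := mem_domAmb.1 hx
        have hx3 : (⟨x, hx1⟩ : (QP.free R m).M) = 0 := hx2
        exact congrArg Subtype.val hx3
      rw [h2, bc_bot] at h1
      have h3 : z.1 = 0 := h1
      refine ⟨trivial, ?_, ?_⟩
      · change (⟨z.1, trivial⟩ : (QP.free S m).M) ∈ (⊥ : Submodule S _)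
        rw [Submodule.mem_bot]
        exact Subtype.ext h3
      · exact funext fun i => Fin.elim0 i
    · rintro ⟨h, h', h''⟩
      have h1 : (⟨z.1, h⟩ : (QP.free S m).M) = 0 := h'
      have h3 : z.1 = 0 := congrArg Subtype.val h1
      refine ⟨?_, ?_, funext fun i => Fin.elim0 i⟩
      · rw [h3]
        exact zero_mem _
      · change z.1 ∈ bc f _
        rw [h3]
        exact zero_mem _
  · refine heq_of_gr hzero hfree (heq_of_eq (Set.ext fun z => ⟨?_, ?_⟩))
    · rintro ⟨h, h', h''⟩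
      exact ⟨trivial, trivial, funext fun i => Fin.elim0 i⟩
    · rintro ⟨h, h', h''⟩
      have h2 : domAmb (P := QP.zero R) (P' := QP.free R m)
          (QHom.ofTop R (QP.zero R).M (QP.free R m).M) = ⊤ := by
        rw [eq_top_iff]
        intro x _
        exact mem_domAmb.2 ⟨trivial, trivial⟩
      refine ⟨?_, ?_, funext fun i => Fin.elim0 i⟩
      · change z.1 ∈ bc f (⊤ : Submodule R (Fin m → R))
        rw [bc_top]
        trivial
      · change z.1 ∈ bc f (domAmb (P := QP.zero R) (P' := QP.free R m)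
          (QHom.ofTop R (QP.zero R).M (QP.free R m).M))
        rw [h2, bc_top]
        trivial
  · let φ : QP.free R m ⟶ QP.free R m := QHom.ofIso (topAut (glAut e (St.toGL g)))
    have hamb : ∀ v : Fin m → R, amb (P := QP.free R m) (P' := QP.free R m) φ v =
        glAut e (St.toGL g) v := fun v =>
      amb_apply (P := QP.free R m) (P' := QP.free R m) φ (x := v) trivial trivial
    have h2 : domAmb (P := QP.free R m) (P' := QP.free R m) φ = ⊤ := by
      rw [eq_top_iff]
      intro x _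
      exact mem_domAmb.2 ⟨trivial, trivial⟩
    have h3 : ∀ x : Fin m → S, bcMap f (amb (P := QP.free R m) (P' := QP.free R m) φ) x =
        glAut e (St.toGL (St.map f g)) x := by
      intro x
      refine bcMap_eq_on f _ (glAut e (St.toGL (St.map f g))).toLinearMap
        (N := (⊤ : Submodule R (Fin m → R))) (fun v _ => ?_) (by rw [bc_top]; trivial)
      exact (bcMap_fv f _ v).trans ((congrArg (fv f) (hamb v)).trans (glAut_fv f e g v).symm)
    refine heq_of_gr hfree hfree (heq_of_eq (Set.ext fun z => ⟨?_, ?_⟩))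
    · rintro ⟨h, h', h''⟩
      refine ⟨trivial, trivial, ?_⟩
      rw [← h'']
      exact (h3 z.1).symm
    · rintro ⟨h, h', h''⟩
      refine ⟨?_, ?_, ?_⟩
      · change z.1 ∈ bc f (⊤ : Submodule R (Fin m → R))
        rw [bc_top]
        trivial
      · change z.1 ∈ bc f (domAmb (P := QP.free R m) (P' := QP.free R m) φ)
        rw [h2, bc_top]
        trivial
      · rw [← h'']
        exact h3 z.1

end Vale.Agent.P178.H51
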